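import Vale.Agent.P159.T1.S.Stmts
import Vale.Agent.P159.T1.D.H407.Tilt
import Vale.Agent.P159.T1.H910.DKit

/-!
Row S.LOWP of the sharp stage: the lower bound in the sector `(0|0)` with the charges `ρ'`, from
`StmtLow` and the monotony in the charges.
-/

open Filter Topology

namespace Vale.Agent.P159.T1.S.H857

open Vale.Agent.P159 Vale.Agent.P159.H353 Vale.Agent.P159.T1.D

lemma cf_add (Y V W : ℝ) (q : ℕ) (e : Bnd) : cf Y (V + W) q e = cf Y V q e + cf Y W q e := by
  unfold cf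
  split_ifs
  · rw [add_div]
  · rw [add_div]
    ring

lemma Bf_addV (Y V W : ℝ) (q : ℕ) (Γ : ℝ → ℝ) (e : Bnd) :
    Bf Y (V + W) q Γ e = Bf Y V q Γ e + Bf Y W q Γ e := by
  unfold Bf
  rw [cf_add]
  ring

/-- the charges are additive in the strength -/
theorem ro_addV (Y V W : ℝ) (q : ℕ) (Γ : ℝ → ℝ) (f : Z2) :
    ro Y (V + W) q Γ f = ro Y V q Γ f + ro Y W q Γ f := by
  unfold ro
  split_ifs
  · simp only [Bf_addV]
    ring
  · simp

lemma aq_pos (q : ℕ) : 0 < aq q := by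
  unfold aq
  have hpi := Real.pi_pos
  have h1 : ang q < Real.pi / 2 := Real.arctan_lt_pi_div_two _
  apply div_pos <;> linarith

lemma aq_le (q : ℕ) : aq q ≤ 1 := by
  unfold aq
  have hpi := Real.pi_pos
  have h1 : 0 ≤ ang q := Real.arctan_nonneg.2 (by positivity)
  rw [div_le_one (by linarith)]
  linarith

/-- the difference of two clamped profiles is monotone -/
lemma clp_sub_mono' {a A A' : ℝ} (h : Real.log A' ≤ Real.log A) :
    Monotone (clp a A - clp a A') := by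
  intro u v huv
  show clp a A u - clp a A' u ≤ clp a A v - clp a A' v
  unfold clp
  rcases le_total u (Real.log A) with h1 | h1 <;> rcases le_total v (Real.log A) with h2 | h2 <;>
    rcases le_total u (Real.log A') with h3 | h3 <;> rcases le_total v (Real.log A') with h4 | h4 <;>
    rcases le_total (Real.log a) u with h5 | h5 <;> rcases le_total (Real.log a) v with h6 | h6 <;>
    rcases le_total (Real.log a) (Real.log A) with h7 | h7 <;>
    rcases le_total (Real.log a) (Real.log A') with h8 | h8 <;>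
    simp only [min_eq_left, min_eq_right, max_eq_left, max_eq_right, h1, h2, h3, h4, h5, h6, h7,
      h8] <;> linarith

/-- `ρ' ≥ ρ` with the strength `V - a` -/
theorem rho_le_rp {Y V κ x y s c1 : ℝ} {q n0 r : ℕ} (hY : 0 < Y) (hq : 1 ≤ q) (hc0 : 0 < c1)
    (hc1 : c1 ≤ 1 / 4) (hr : 1 ≤ r) (f : Z2) :
    D.rho Y (V - aq q) q n0 r κ x y s f ≤ rp Y V q n0 r κ x y s c1 f := by
  have hr0 : (0 : ℝ) < r := by exact_mod_cast hr
  have hlog : Real.log (c1 * r) ≤ Real.log ((r : ℝ) / 4) :=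
    Real.log_le_log (by positivity) (by nlinarith)
  have h1 : ∀ g, ro Y (aq q) q (clp n0 (c1 * r)) g ≤ ro Y (aq q) q (clp n0 ((r : ℝ) / 4)) g :=
    fun g => ro_mono hY (aq_pos q) hq (clp_sub_mono' hlog) g
  have h2 : ∀ g, ro Y V q (clp n0 ((r : ℝ) / 4)) g =
      ro Y (V - aq q) q (clp n0 ((r : ℝ) / 4)) g + ro Y (aq q) q (clp n0 ((r : ℝ) / 4)) g := by
    intro g
    rw [← ro_addV]
    congr 1
    ring
  unfold rp rz D.rho
  rw [h2 f, h2 (mir r f)]
  linarith [h1 f, h1 (mir r f)]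

theorem rho_nonneg {Y V κ x y s : ℝ} {q n0 r : ℕ} (hY : 0 < Y) (hV : 0 < V) (hq : 1 ≤ q)
    (hκ : 0 ≤ κ) (f : Z2) : 0 ≤ D.rho Y V q n0 r κ x y s f := by
  have hm : Monotone (clp n0 ((r : ℝ) / 4)) := fun u v huv =>
    max_le_max le_rfl (min_le_min huv le_rfl)
  have h1 := ro_nonneg hY hV hq hm f
  have h2 := ro_nonneg hY hV hq hm (mir r f)
  have h3 : 0 ≤ bump r κ x y s f := by unfold bump; positivity
  have h4 : 0 ≤ bump r κ x y s (mir r f) := by unfold bump; positivity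
  unfold D.rho
  linarith

/-- **S.LOWP** from `StmtLow` -/
theorem stmtLowP_of (hLow : StmtLow) : StmtLowP := by
  intro b V ε κ x y s c1 q hb hV hε hpar
  obtain ⟨hq, hκ, hs, hsy, hsx, hqy, hc1, hc2⟩ := hpar
  have hb0 : 0 < b := lt_of_lt_of_le H170.bCrit_pos hb
  have hY : 0 < helicity b := by
    have h := H170.final.2.2.1.2.2.2 b hb
    exact lt_of_lt_of_le (div_pos two_pos Real.pi_pos) (h.2.1.trans h.2.2.1)
  have hV' : 0 < V - aq q := by linarith [aq_le q]
  obtain ⟨n1, h⟩ := hLow b (V - aq q) q κ x y s ε hb hV' hq hε hκ hs hsy hsx hqy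
  refine ⟨n1, fun n0 hn0 => ?_⟩
  obtain ⟨C, hC⟩ := h n0 hn0
  refine ⟨C, max n1 1, fun A r hA hr => ?_⟩
  have hr1 : 1 ≤ r := (le_max_right _ _).trans hr
  refine (hC A r hA ((le_max_left _ _).trans hr)).trans ?_
  exact H910.Zρ_mono_ρ hb0.le (fun f _ => rho_nonneg hY hV' hq hκ.le f)
    (fun f _ => rho_le_rp hY hq hc1 (by linarith) hr1 f)

end Vale.Agent.P159.T1.S.H857
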